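import Vale.Agent.H15.F.Final

open MeasureTheory Vale.Agent.H15.F

universe u

/-- The free uniform spanning forest is a factor of IID: on every unimodular random graph it is a
graph factor of IID, and on every Cayley graph of every infinite finitely generated group it is a
factor of IID for the group action. -/
theorem Vale.Agent.Results.P143.FactorOfIID.result :
    (∀ ρ : Measure (Set (Sym2 ℕ) × ℕ), IsUnimodular ρ →
      ∃ Φ : Set (Sym2 ℕ) → (ℕ → unitInterval) → Set (Sym2 ℕ),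
        Measurable (fun q : Set (Sym2 ℕ) × (ℕ → unitInterval) => Φ q.1 q.2) ∧
        (∀ (σ : Equiv.Perm ℕ) (s : Set (Sym2 ℕ)) (U : ℕ → unitInterval),
          Φ (Sym2.map σ '' s) (fun x => U (σ.symm x)) = Sym2.map σ '' Φ s U) ∧
        ∀ᵐ p ∂ρ, IsFUSF p.1 ((iidU ℕ).map (Φ p.1))) ∧
    (∀ (Γ : Type u) [Group Γ] [Infinite Γ] (T : Finset Γ),
      Subgroup.closure (T : Set Γ) = ⊤ →
      ∃ Φ : (Γ → unitInterval) → Set (Sym2 Γ), Measurable Φ ∧
        (∀ (γ : Γ) (U : Γ → unitInterval),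
          Φ (fun x => U (γ⁻¹ * x)) = Sym2.map (γ * ·) '' Φ U) ∧
        IsFUSF (SimpleGraph.mulCayley (T : Set Γ)).edgeSet ((iidU Γ).map Φ)) :=
  ⟨fun _ hρ => unimodular_factor hρ, fun _ _ _ T hT => cayley_factor T hT⟩
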